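import Vale.Agent.P371.Fin2

/-!
# P371: the sharp one-dimensional Lieb-Thirring constants, scalar and matrix potentials
-/

open scoped ENNReal

namespace Vale.Agent.Results.P371.AllGamma

open Vale.Agent.P371

/-- **The one-dimensional Lieb-Thirring conjecture, for scalar and matrix potentials.**
For all `1/2 < γ < 3/2` and all `m ≥ 1` the Lieb-Thirring constant `L_γ(m)` for `m × m` matrix
potentials equals the one-bound-state constant
`L_γ^(1) = 2 ((γ-1/2)/(γ+1/2))^(γ-1/2) L^cl_γ`; in particular `L_γ(m) = L_γ(1)`. -/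
theorem result : ∀ γ : ℝ, 1 / 2 < γ → γ < 3 / 2 → ∀ m : ℕ, 1 ≤ m →
    LT γ m = LTone γ ∧ LT γ m = LT γ 1 ∧
    LT γ m = ENNReal.ofReal (2 * ((γ - 1 / 2) / (γ + 1 / 2)) ^ (γ - 1 / 2) * Lcl γ) := by
  intro γ h0 h1 m hm
  obtain ⟨h2, h3⟩ := all_gamma h0 h1 m hm
  obtain ⟨h4, -⟩ := all_gamma h0 h1 1 le_rfl
  exact ⟨h2.trans h3.symm, h2.trans h4.symm, h2⟩

end Vale.Agent.Results.P371.AllGamma
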