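import Vale.Agent.P371.Fin

/-!
# P371: the sharp one-dimensional Lieb-Thirring constant for `γ = 1`, scalar and matrix potentials
-/

open scoped ENNReal

namespace Vale.Agent.Results.P371.GammaOne

open Vale.Agent.P371

/-- **The one-dimensional Lieb-Thirring conjecture for `γ = 1`, for matrix potentials.**
For every `m ≥ 1` the Lieb-Thirring constant `L_1(m)` for `m × m` matrix potentials equals the
one-bound-state constant `L_1^(1) = 2 ((γ-1/2)/(γ+1/2))^(γ-1/2) L^cl_γ` at `γ = 1`, i.e.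
`4 / (3 √3 π)`. -/
theorem result : ∀ m : ℕ, 1 ≤ m →
    LT 1 m = LTone 1 ∧
    LT 1 m = ENNReal.ofReal
      (2 * (((1 : ℝ) - 1 / 2) / (1 + 1 / 2)) ^ ((1 : ℝ) - 1 / 2) * Lcl 1) ∧
    LT 1 m = ENNReal.ofReal (4 / (3 * Real.sqrt 3 * Real.pi)) := by
  intro m hm
  obtain ⟨h1, h2⟩ := gamma_one m hm
  exact ⟨h1.trans h2.symm, by rw [value_one, h1], h1⟩

end Vale.Agent.Results.P371.GammaOne
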